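import Vale.Agent.H46.KSat.Asymp

/-!
# P170: every sharp-threshold sequence of random k-SAT is asymptotically quasi-superadditive

Model (file `Vale/Agent/H46/KSat/Defs.lean`): `P k n m` is the probability that `m` independent
uniformly random proper `k`-clauses on `n` Boolean variables are simultaneously satisfiable, and
`IsThresholdSeq k r` says that `r` is a sharp-threshold sequence in the sense of Friedgut's
theorem: for every `ε > 0`, `P k n ⌊(r n - ε) n⌋ → 1` and `P k n ⌊(r n + ε) n⌋ → 0`.

Result: for every such sequence and every `ε > 0` there is `n0` with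
`r (n1 + n2) ≥ min (r n1) (r n2) - ε` for all `n1, n2 ≥ n0`.

Proof (helper files `Vale/Agent/H46/KSat/*`): a two-block interpolation between a formula on
`n1 + n2` variables and two independent formulas on `n1` and `n2` variables, carried out
directly for the probability of satisfiability with proper clauses (each interpolation step
costs a factor `1 - 4 k^2 / (2^k (n1 + n2))`), a second-moment estimate for the number of
clauses falling in each block, monotonicity, and the first-moment bound.
-/

namespace Vale.Agent.Results.P170.A_QuasiSuperadditive

open Vale.Agent.H46.KSat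

/-- Every sharp-threshold sequence `r` of random `k`-SAT (`k ≥ 2`) is asymptotically
quasi-superadditive: for every `ε > 0` there is `n0` such that
`min (r n1) (r n2) - ε ≤ r (n1 + n2)` whenever `n1, n2 ≥ n0`. -/
theorem result (k : ℕ) (hk : 2 ≤ k) (r : ℕ → ℝ) (hr : IsThresholdSeq k r) (ε : ℝ) (hε : 0 < ε) :
    ∃ n0 : ℕ, ∀ n1 n2 : ℕ, n0 ≤ n1 → n0 ≤ n2 → min (r n1) (r n2) - ε ≤ r (n1 + n2) :=
  quasi_superadditive k (le_trans (by norm_num) hk) r hr ε hε

end Vale.Agent.Results.P170.A_QuasiSuperadditive
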