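import Vale.Agent.H46.KSat.Asymp

/-!
# P170: quasi-superadditivity of sharp-threshold sequences of random k-SAT, and multiples

Model (file `Vale/Agent/H46/KSat/Defs.lean`): `P k n m` is the probability that `m` independent
uniformly random proper `k`-clauses on `n` Boolean variables are simultaneously satisfiable, and
`IsThresholdSeq k r` says that `r` is a sharp-threshold sequence in the sense of Friedgut's
theorem: for every `ε > 0`, `P k n ⌊(r n - ε) n⌋ → 1` and `P k n ⌊(r n + ε) n⌋ → 0`.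

For every such sequence (`k ≥ 2`):

1. (the statement of `A_QuasiSuperadditive`) for every `ε > 0` there is `n0` with
   `r (n1 + n2) ≥ min (r n1) (r n2) - ε` for all `n1, n2 ≥ n0`;
2. (a corollary, by induction on `m`) for every `m ≥ 1` and every `ε > 0` there is `n0` with
   `r (m * n) ≥ r n - ε` for all `n ≥ n0`.
-/

namespace Vale.Agent.Results.P170.A_QuasiSuperadditiveAndMultiples

open Vale.Agent.H46.KSat

theorem result (k : ℕ) (hk : 2 ≤ k) (r : ℕ → ℝ) (hr : IsThresholdSeq k r) :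
    (∀ ε : ℝ, 0 < ε →
      ∃ n0 : ℕ, ∀ n1 n2 : ℕ, n0 ≤ n1 → n0 ≤ n2 → min (r n1) (r n2) - ε ≤ r (n1 + n2)) ∧
    (∀ m : ℕ, 1 ≤ m → ∀ ε : ℝ, 0 < ε →
      ∃ n0 : ℕ, ∀ n : ℕ, n0 ≤ n → r n - ε ≤ r (m * n)) := by
  have hq : ∀ ε : ℝ, 0 < ε →
      ∃ n0 : ℕ, ∀ n1 n2 : ℕ, n0 ≤ n1 → n0 ≤ n2 → min (r n1) (r n2) - ε ≤ r (n1 + n2) :=
    fun ε hε => quasi_superadditive k (le_trans (by norm_num) hk) r hr ε hε
  refine ⟨hq, ?_⟩
  intro m hm
  induction m, hm using Nat.le_induction with
  | base =>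
    intro ε hε
    refine ⟨0, fun n _ => ?_⟩
    rw [one_mul]
    linarith
  | succ m hm ih =>
    intro ε hε
    obtain ⟨a, ha⟩ := ih (ε / 2) (by linarith)
    obtain ⟨b, hb⟩ := hq (ε / 2) (by linarith)
    refine ⟨max a b, fun n hn => ?_⟩
    have hna : a ≤ n := le_trans (le_max_left a b) hn
    have hnb : b ≤ n := le_trans (le_max_right a b) hn
    have hmn : b ≤ m * n := le_trans hnb (Nat.le_mul_of_pos_left n (by omega))
    have h1 := ha n hna
    have h2 := hb (m * n) n hmn hnb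
    have h3 : (m + 1) * n = m * n + n := by ring
    rw [h3]
    have h4 : r n - ε / 2 ≤ min (r (m * n)) (r n) := le_min h1 (by linarith)
    linarith

end Vale.Agent.Results.P170.A_QuasiSuperadditiveAndMultiples
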